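import Mathlib

namespace Vale.Agent.P199

variable {F D : Type*} [Field F] [Ring D] [Algebra F D]

section
variable (a b : D) (α1 α0 β1 β0 : F)

/-- the central element attached to two quadratic elements -/
def cen : D := a * b + b * a - β1 • a - α1 • b + (α1 * β1) • (1 : D)

variable {a b α1 α0 β1 β0}

theorem cen_comm_a (ha : a * a = α1 • a + α0 • 1) : a * cen a b α1 β1 = cen a b α1 β1 * a := by
  unfold cen
  have h1 : a * (a * b) = α1 • (a * b) + α0 • b := by
    rw [← mul_assoc, ha, add_mul, smul_mul_assoc, smul_mul_assoc, one_mul]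
  have h2 : b * a * a = α1 • (b * a) + α0 • b := by
    rw [mul_assoc, ha, mul_add, mul_smul_comm, mul_smul_comm, mul_one]
  simp only [mul_add, mul_sub, add_mul, sub_mul, mul_smul_comm, smul_mul_assoc, mul_one, one_mul]
  rw [h1, h2, ← mul_assoc a b a]
  abel

theorem cen_comm_b (hb : b * b = β1 • b + β0 • 1) : b * cen a b α1 β1 = cen a b α1 β1 * b := by
  unfold cen
  have h1 : b * (b * a) = β1 • (b * a) + β0 • a := by
    rw [← mul_assoc, hb, add_mul, smul_mul_assoc, smul_mul_assoc, one_mul]
  have h2 : a * b * b = β1 • (a * b) + β0 • a := by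
    rw [mul_assoc, hb, mul_add, mul_smul_comm, mul_smul_comm, mul_one]
  simp only [mul_add, mul_sub, add_mul, sub_mul, mul_smul_comm, smul_mul_assoc, mul_one, one_mul]
  rw [h1, h2, ← mul_assoc b a b]
  abel


/-- `F[c]` -/
abbrev Cc (a b : D) (α1 β1 : F) : Subalgebra F D := Algebra.adjoin F {cen a b α1 β1}

/-- the span of `1, a, b, ab` -/
abbrev Uu (F : Type*) {D : Type*} [Field F] [Ring D] [Algebra F D] (a b : D) : Submodule F D :=
  Submodule.span F {1, a, b, a * b}

/-- `F[c] * span {1, a, b, ab}` -/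
abbrev Ww (a b : D) (α1 β1 : F) : Submodule F D :=
  (Cc a b α1 β1).toSubmodule * Uu F a b

theorem comm_Cc {x : D} (hx : x * cen a b α1 β1 = cen a b α1 β1 * x) {p : D}
    (hp : p ∈ Cc a b α1 β1) : x * p = p * x := by
  have hle : Cc a b α1 β1 ≤ Subalgebra.centralizer F {x} := by
    apply Algebra.adjoin_le
    intro y hy
    rw [Set.mem_singleton_iff] at hy
    subst hy
    rw [SetLike.mem_coe, Subalgebra.mem_centralizer_iff]
    intro z hz
    rw [Set.mem_singleton_iff] at hz
    subst hz
    exact hx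
  have := hle hp
  rw [Subalgebra.mem_centralizer_iff] at this
  exact this x rfl

theorem C_mul_W {p w : D} (hp : p ∈ Cc a b α1 β1) (hw : w ∈ Ww a b α1 β1) :
    p * w ∈ Ww a b α1 β1 := by
  have h1 : p * w ∈ (Cc a b α1 β1).toSubmodule * Ww a b α1 β1 :=
    Submodule.mul_mem_mul hp hw
  have h2 : (Cc a b α1 β1).toSubmodule * Ww a b α1 β1 = Ww a b α1 β1 := by
    show (Cc a b α1 β1).toSubmodule * ((Cc a b α1 β1).toSubmodule * Uu F a b) = _
    rw [← mul_assoc, (Subalgebra.isIdempotentElem_toSubmodule (Cc a b α1 β1)).eq]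
  rw [h2] at h1
  exact h1

theorem U_le_W {u : D} (hu : u ∈ Uu F a b) : u ∈ Ww a b α1 β1 := by
  have := Submodule.mul_mem_mul (M := (Cc a b α1 β1).toSubmodule) (N := Uu F a b)
    (Subalgebra.one_mem _) hu
  simpa using this

theorem gen_mem (x : D) (hx : x = 1 ∨ x = a ∨ x = b ∨ x = a * b) : x ∈ Uu F a b := by
  apply Submodule.subset_span
  simpa using hx

theorem c_mul_mem {u : D} (hu : u ∈ Uu F a b) : cen a b α1 β1 * u ∈ Ww a b α1 β1 :=
  Submodule.mul_mem_mul (Algebra.subset_adjoin rfl) hu

theorem a_mul_U (ha : a * a = α1 • a + α0 • 1) {u : D} (hu : u ∈ Uu F a b) :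
    a * u ∈ Ww a b α1 β1 := by
  induction hu using Submodule.span_induction with
  | mem x hx =>
    apply U_le_W
    simp only [Set.mem_insert_iff, Set.mem_singleton_iff] at hx
    rcases hx with h | h | h | h <;> rw [h]
    · rw [mul_one]; exact gen_mem _ (by tauto)
    · rw [ha]
      exact add_mem (Submodule.smul_mem _ _ (gen_mem _ (by tauto)))
        (Submodule.smul_mem _ _ (gen_mem _ (by tauto)))
    · exact gen_mem _ (by tauto)
    · rw [← mul_assoc, ha, add_mul, smul_mul_assoc, smul_mul_assoc, one_mul]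
      exact add_mem (Submodule.smul_mem _ _ (gen_mem _ (by tauto)))
        (Submodule.smul_mem _ _ (gen_mem _ (by tauto)))
  | zero => rw [mul_zero]; exact zero_mem _
  | add x y _ _ hx hy => rw [mul_add]; exact add_mem hx hy
  | smul r x _ hx => rw [mul_smul_comm]; exact Submodule.smul_mem _ _ hx

theorem ba_eq : b * a = cen a b α1 β1 - a * b + β1 • a + α1 • b - (α1 * β1) • (1 : D) := by
  unfold cen; abel

theorem b_mul_U (hb : b * b = β1 • b + β0 • 1) {u : D} (hu : u ∈ Uu F a b) :
    b * u ∈ Ww a b α1 β1 := by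
  have g1 : (1 : D) ∈ Ww a b α1 β1 := U_le_W (gen_mem _ (by tauto))
  have ga : a ∈ Ww a b α1 β1 := U_le_W (gen_mem _ (by tauto))
  have gb : b ∈ Ww a b α1 β1 := U_le_W (gen_mem _ (by tauto))
  have gab : a * b ∈ Ww a b α1 β1 := U_le_W (gen_mem _ (by tauto))
  have gc : cen a b α1 β1 ∈ Ww a b α1 β1 := by
    have := c_mul_mem (α1 := α1) (β1 := β1) (gen_mem (F := F) (a := a) (b := b) 1 (by tauto))
    simpa using this
  have gcb : cen a b α1 β1 * b ∈ Ww a b α1 β1 := c_mul_mem (gen_mem _ (by tauto))
  induction hu using Submodule.span_induction with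
  | mem x hx =>
    simp only [Set.mem_insert_iff, Set.mem_singleton_iff] at hx
    rcases hx with h | h | h | h <;> rw [h]
    · rw [mul_one]; exact gb
    · rw [ba_eq (a := a) (b := b) (α1 := α1) (β1 := β1)]
      exact sub_mem (add_mem (add_mem (sub_mem gc gab) (Submodule.smul_mem _ _ ga))
        (Submodule.smul_mem _ _ gb)) (Submodule.smul_mem _ _ g1)
    · rw [hb]
      exact add_mem (Submodule.smul_mem _ _ gb) (Submodule.smul_mem _ _ g1)
    · have e : b * (a * b) = cen a b α1 β1 * b - β0 • a + (α1 * β0) • (1 : D) := by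
        rw [← mul_assoc, ba_eq (a := a) (b := b) (α1 := α1) (β1 := β1)]
        simp only [add_mul, sub_mul, smul_mul_assoc, one_mul]
        rw [mul_assoc a b b, hb]
        simp only [mul_add, mul_smul_comm, mul_one, smul_add, smul_smul]
        rw [mul_comm α1 β1]
        abel
      rw [e]
      exact add_mem (sub_mem gcb (Submodule.smul_mem _ _ ga)) (Submodule.smul_mem _ _ g1)
  | zero => rw [mul_zero]; exact zero_mem _
  | add x y _ _ hx hy => rw [mul_add]; exact add_mem hx hy
  | smul r x _ hx => rw [mul_smul_comm]; exact Submodule.smul_mem _ _ hx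

theorem x_mul_W {x : D} (hxc : x * cen a b α1 β1 = cen a b α1 β1 * x)
    (hxU : ∀ u ∈ Uu F a b, x * u ∈ Ww a b α1 β1) {w : D} (hw : w ∈ Ww a b α1 β1) :
    x * w ∈ Ww a b α1 β1 := by
  induction hw using Submodule.mul_induction_on' with
  | mem_mul_mem p hp u hu =>
    rw [← mul_assoc, comm_Cc hxc hp, mul_assoc]
    exact C_mul_W hp (hxU u hu)
  | add y _ z _ hy hz => rw [mul_add]; exact add_mem hy hz

theorem adjoin_le_W (ha : a * a = α1 • a + α0 • 1) (hb : b * b = β1 • b + β0 • 1) :
    (Algebra.adjoin F {a, b}).toSubmodule ≤ Ww a b α1 β1 := by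
  have key : ∀ x ∈ Algebra.adjoin F {a, b}, ∀ w ∈ Ww a b α1 β1, x * w ∈ Ww a b α1 β1 := by
    intro x hx
    induction hx using Algebra.adjoin_induction with
    | mem y hy =>
      intro w hw
      simp only [Set.mem_insert_iff, Set.mem_singleton_iff] at hy
      rcases hy with rfl | rfl
      · exact x_mul_W (cen_comm_a ha) (fun u hu => a_mul_U ha hu) hw
      · exact x_mul_W (cen_comm_b hb) (fun u hu => b_mul_U hb hu) hw
    | algebraMap r =>
      intro w hw
      rw [← Algebra.smul_def]
      exact Submodule.smul_mem _ _ hw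
    | add y z _ _ hy hz =>
      intro w hw
      rw [add_mul]; exact add_mem (hy w hw) (hz w hw)
    | mul y z _ _ hy hz =>
      intro w hw
      rw [mul_assoc]; exact hy _ (hz w hw)
  intro x hx
  have := key x hx 1 (U_le_W (gen_mem _ (by tauto)))
  simpa using this

theorem finite_adjoin (hc : IsIntegral F (cen a b α1 β1))
    (ha : a * a = α1 • a + α0 • 1) (hb : b * b = β1 • b + β0 • 1) :
    FiniteDimensional F (Algebra.adjoin F {a, b}) := by
  have hC : (Cc a b α1 β1).toSubmodule.FG := hc.fg_adjoin_singleton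
  have hU : (Uu F a b).FG := Submodule.fg_span (by simp)
  have hW : (Ww a b α1 β1).FG := hC.mul hU
  have : FiniteDimensional F (Ww a b α1 β1) := Module.Finite.iff_fg.2 hW
  exact Submodule.finiteDimensional_of_le (adjoin_le_W ha hb)

end

end Vale.Agent.P199
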